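import Vale.Agent.P129.Random

open MeasureTheory

universe u w

namespace Vale.Agent.Results.P129.CovNull

/-- The cardinal `cov(N)`: the least size of a family of Lebesgue null sets covering the line. -/
noncomputable def covNull : Cardinal.{0} :=
  sInf {c | ∃ F : Set (Set ℝ), (∀ s ∈ F, volume s = 0) ∧ ⋃₀ F = Set.univ ∧ Cardinal.mk F = c}

/-- Every infinite-dimensional real or complex Banach space of density below `cov(N)` has a
separable infinite-dimensional quotient. -/
theorem result (𝕜 : Type w) [RCLike 𝕜] (X : Type u) [NormedAddCommGroup X] [NormedSpace 𝕜 X]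
    [CompleteSpace X] (hX : ¬ FiniteDimensional 𝕜 X) (D : Set X) (hD : Dense D)
    (hcard : Cardinal.mk D < Cardinal.lift.{u} covNull) :
    ∃ M : Submodule 𝕜 X, IsClosed (M : Set X) ∧ TopologicalSpace.SeparableSpace (X ⧸ M) ∧
      ¬ FiniteDimensional 𝕜 (X ⧸ M) := by
  obtain ⟨u, hu1, -, hae⟩ := Vale.Agent.P129.exists_random (𝕜 := 𝕜) hX
    (ProbabilityTheory.gaussianReal 0 1) (Vale.Agent.P129.smallPieces_borel _ fun x =>
      ProbabilityTheory.gaussianReal_absolutelyContinuous 0 one_ne_zero (measure_singleton x))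
  let N : D → Set ℝ := fun d =>
    {ω | ¬ ∀ᶠ k in Filter.atTop, ‖u k ω d‖ ≤ (1 / 2) ^ k * ‖(d : X)‖}
  have hN : ∀ d, volume (N d) = 0 := fun d =>
    ProbabilityTheory.gaussianReal_absolutelyContinuous' 0 one_ne_zero (ae_iff.1 (hae d))
  have hne : ⋃₀ Set.range N ≠ Set.univ := by
    intro h
    have h1 : covNull ≤ Cardinal.mk (Set.range N) :=
      csInf_le' ⟨_, by rintro _ ⟨d, rfl⟩; exact hN d, h, rfl⟩
    have h2 := Cardinal.mk_range_le_lift (f := N)
    rw [Cardinal.lift_uzero] at h2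
    exact hcard.not_ge ((Cardinal.lift_le.2 h1).trans h2)
  obtain ⟨ω, hω⟩ := (Set.ne_univ_iff_exists_notMem _).1 hne
  refine Vale.Agent.P129.sq_of_dense_summable (fun k => u k ω) (fun k => hu1 k ω)
    (hD.mono fun d hd => Vale.Agent.P129.summable_of_eventually ?_)
  by_contra h
  exact hω ⟨_, ⟨⟨d, hd⟩, rfl⟩, h⟩

end Vale.Agent.Results.P129.CovNull
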