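import Vale.Agent.P129.Tree
import Vale.Agent.P129.CH.Final

open MeasureTheory

universe u v w

namespace Vale.Agent.Results.P129.Independence

/-- Under the continuum hypothesis some infinite-dimensional Banach space has no separable
infinite-dimensional quotient. If a set of size at most the continuum carries a countably additive
probability measure defined on all its subsets and vanishing on points, then every
infinite-dimensional real or complex Banach space has a separable infinite-dimensional quotient. -/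
theorem result :
    (Cardinal.continuum.{0} = Cardinal.aleph 1 →
      ∃ (X : Type) (_ : NormedAddCommGroup X) (_ : NormedSpace ℝ X), CompleteSpace X ∧
        ¬ FiniteDimensional ℝ X ∧ ¬ ∃ M : Submodule ℝ X, IsClosed (M : Set X) ∧
          TopologicalSpace.SeparableSpace (X ⧸ M) ∧ ¬ FiniteDimensional ℝ (X ⧸ M)) ∧
    (∀ (Ω : Type v) (μ : @Measure Ω ⊤), Cardinal.mk Ω ≤ Cardinal.continuum →
      μ Set.univ = 1 → (∀ ω : Ω, μ {ω} = 0) →
      ∀ (𝕜 : Type w) [RCLike 𝕜] (X : Type u) [NormedAddCommGroup X] [NormedSpace 𝕜 X],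
        CompleteSpace X → ¬ FiniteDimensional 𝕜 X → ∃ M : Submodule 𝕜 X, IsClosed (M : Set X) ∧
          TopologicalSpace.SeparableSpace (X ⧸ M) ∧ ¬ FiniteDimensional 𝕜 (X ⧸ M)) := by
  refine ⟨fun hCH => ?_, fun Ω μ hΩ hμ hpt 𝕜 _ X _ _ _ hX => ?_⟩
  · obtain ⟨X, _, _, h1, h2, h3⟩ := Vale.Agent.P129.CH.exists_counterexample hCH
    exact ⟨X, _, _, h1, h2, fun ⟨M, a1, a2, a3⟩ => a3 (h3 M a1 a2)⟩
  by_contra hSQ
  obtain ⟨e⟩ : Nonempty (Ω ↪ ℝ) := by
    rw [← Cardinal.lift_mk_le', Cardinal.mk_real, Cardinal.lift_continuum, Cardinal.lift_uzero]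
    exact hΩ
  let : MeasurableSpace Ω := ⊤
  let : MeasurableSpace ℝ := ⊤
  have : IsProbabilityMeasure μ := ⟨hμ⟩
  have hm : Measurable e := Measurable.of_discrete
  have : IsProbabilityMeasure (μ.map e) := Measure.isProbabilityMeasure_map hm.aemeasurable
  have hc : Vale.Agent.P129.SmallPieces (μ.map e) := by
    refine Vale.Agent.P129.smallPieces_top _ fun x => ?_
    rw [Measure.map_apply hm MeasurableSet.of_discrete]
    rcases (Set.subsingleton_singleton.preimage e.injective).eq_empty_or_singleton with h | ⟨a, h⟩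
    · rw [h, measure_empty]
    · rw [h, hpt]
  obtain ⟨h, h1, hh⟩ := Vale.Agent.P129.exists_unc hX hSQ (μ.map e) hc
  obtain ⟨C, g, hg⟩ := Vale.Agent.P129.exists_l1 hSQ h1 hh
  exact hSQ hg.sq

end Vale.Agent.Results.P129.Independence
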