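import Vale.Agent.P129.Tree

open MeasureTheory

universe u v w

namespace Vale.Agent.Results.P129.RealValuedMeasurable

/-- If some set of size at most the continuum carries a countably additive probability measure
defined on all its subsets and vanishing on points, then every infinite-dimensional real or complex
Banach space has a separable infinite-dimensional quotient. -/
theorem result (Ω : Type v) (hΩ : Cardinal.mk Ω ≤ Cardinal.continuum) (μ : @Measure Ω ⊤)
    (hμ : μ Set.univ = 1) (hpt : ∀ ω : Ω, μ {ω} = 0)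
    (𝕜 : Type w) [RCLike 𝕜] (X : Type u) [NormedAddCommGroup X] [NormedSpace 𝕜 X]
    [CompleteSpace X] (hX : ¬ FiniteDimensional 𝕜 X) :
    ∃ M : Submodule 𝕜 X, IsClosed (M : Set X) ∧ TopologicalSpace.SeparableSpace (X ⧸ M) ∧
      ¬ FiniteDimensional 𝕜 (X ⧸ M) := by
  by_contra hSQ
  obtain ⟨e⟩ : Nonempty (Ω ↪ ℝ) := by
    rw [← Cardinal.lift_mk_le', Cardinal.mk_real, Cardinal.lift_continuum, Cardinal.lift_uzero]
    exact hΩ
  let : MeasurableSpace Ω := ⊤
  let : MeasurableSpace ℝ := ⊤
  have : IsProbabilityMeasure μ := ⟨hμ⟩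
  have hm : Measurable e := Measurable.of_discrete
  have : IsProbabilityMeasure (μ.map e) := Measure.isProbabilityMeasure_map hm.aemeasurable
  have hc : Vale.Agent.P129.SmallPieces (μ.map e) := by
    refine Vale.Agent.P129.smallPieces_top _ fun x => ?_
    rw [Measure.map_apply hm MeasurableSet.of_discrete]
    rcases (Set.subsingleton_singleton.preimage e.injective).eq_empty_or_singleton with h | ⟨a, h⟩
    · rw [h, measure_empty]
    · rw [h, hpt]
  obtain ⟨h, h1, hh⟩ := Vale.Agent.P129.exists_unc hX hSQ (μ.map e) hc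
  obtain ⟨C, g, hg⟩ := Vale.Agent.P129.exists_l1 hSQ h1 hh
  exact hSQ hg.sq

end Vale.Agent.Results.P129.RealValuedMeasurable
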